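import Vale.Agent.P207.N5.H58.Pic
import Vale.Agent.P207.N4.H618.Conn
import Vale.Agent.P207.N4.H709.BusA

/-!
# P207, line N5: the picture together with the geodesic flow

`PicG L V` : `Pic L V`, with the Levi-Civita connection of the model and with the Busemann
functions of the geometry (`H709.busA`).
-/

open Set Filter Topology Metric MeasureTheory
open scoped ContDiff

noncomputable section

namespace Vale.Agent.P207.N4.V

open Vale.Agent.P207.N3

variable [Dim]

variable {Γ X B : Type} [Group Γ] [MetricSpace X] [ProperSpace X] [MulAction Γ X]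
  [IsIsometricSMul Γ X] [TopologicalSpace B] [CompactSpace B] [T2Space B] [MulAction Γ B]
  [ContinuousConstSMul Γ B]

/-- The data of the logic, with the geodesic flow. -/
structure PicG (L : Leaf Γ X B) [MeasurableSpace B] [BorelSpace B] (V : Type)
    [NormedAddCommGroup V] [NormedSpace ℝ V] [FiniteDimensional ℝ V] extends Pic L V where
  Cn : H618.Conn S.I S.M.U
  Bu_eq : Bu = H709.busA S.X S.H

/-- `PicG` from the geometry and the affine charts -/
def PicG.mk' {L : Leaf Γ X B} [MeasurableSpace B] [BorelSpace B] {V : Type}
    [NormedAddCommGroup V] [NormedSpace ℝ V] [FiniteDimensional ℝ V] (S : Suite L V)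
    (Cn : H618.Conn S.I S.M.U) (Af : Aff L) (Ra : Rates S.M) : PicG L V where
  S := S
  Bu := H709.busA S.X S.H
  nupos := fun x _ hq => H709.nu_pos S.I x hq
  Af := Af
  Ra := Ra
  Cn := Cn
  Bu_eq := rfl

end Vale.Agent.P207.N4.V
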